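import Vale.Agent.P299.H570.Growth
import Vale.Agent.P299.H213.Pencil.Defs

set_option linter.all false

open MeasureTheory Filter Topology
open scoped ENNReal NNReal ComplexConjugate

namespace Vale.Agent.P299.H570

open Vale.Agent.P300.L2 Vale.Agent.P300.L2.Sheets Vale.Agent.P299.Pencil

variable {n N : ℕ} {S : Sheets n N} {h : MvPolynomial (Fin n) ℂ} {p : (Fin n → ℂ) → ℝ}
  {A : ℝ} {a b c r : ℕ} {e f : Fin r → (Fin n → ℂ) × ℕ → ℂ}

theorem TrData.aemeas (T : TrData S h p A a b c e f) : AEMeasurable (fun q => 1 + p q.1) S.μ := by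
  have hpC : S.CD 0 (fun q => ((1 + p q.1 : ℝ) : ℂ)) := by
    intro W s hs
    have h1 : ContinuousOn p W := T.p_cont.mono (S.subset_dom hs)
    exact contDiffOn_zero.2 (Complex.continuous_ofReal.comp_continuousOn
      (continuousOn_const.add h1))
  have h1 := (aestronglyMeasurable_of_CD hpC).aemeasurable
  have h2 := Complex.measurable_re.comp_aemeasurable h1
  simpa [Function.comp_def] using h2

/-- The integral condition for polynomial weights. -/
theorem TrData.lint (T : TrData S h p A a b c e f) {F : (Fin n → ℂ) × ℕ → ℂ} (hF : S.Holo F)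
    (k : ℕ) : ∫⁻ q, ‖F q‖ₑ ^ 2 ∂(S.μ.withDensity fun q => ENNReal.ofReal (((1 + p q.1) ^ k)⁻¹)) =
      ∫⁻ q, ENNReal.ofReal (‖F q‖ ^ 2 * ((1 + p q.1) ^ k)⁻¹) ∂S.μ := by
  have hm : AEMeasurable (fun q => ENNReal.ofReal (((1 + p q.1) ^ k)⁻¹)) S.μ :=
    (T.aemeas.pow_const k).inv.ennreal_ofReal
  rw [lintegral_withDensity_eq hm hF]
  refine lintegral_congr fun q => ?_
  rw [ENNReal.ofReal_mul (by positivity), ENNReal.ofReal_pow (norm_nonneg _), ofReal_norm]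

/-- **The growth bound** for the spaces `A2`. -/
theorem growth_A2 (T : TrData S h p A a b c e f) : ∃ C : ℕ, ∀ k : ℕ,
    Module.Finite ℂ (A2 S (fun q => ENNReal.ofReal (((1 + p q.1) ^ k)⁻¹))) ∧
    Module.finrank ℂ (A2 S (fun q => ENNReal.ofReal (((1 + p q.1) ^ k)⁻¹))) ≤ C * (1 + k) ^ n := by
  obtain ⟨C, hC⟩ := growth T
  refine ⟨C, fun k => hC k _ ?_⟩
  intro F hF
  obtain ⟨h1, h2, h3⟩ := mem_A2.1 hF
  refine ⟨h1, h2, ?_⟩
  rwa [T.lint h1 k] at h3

/-! ### Polynomial growth -/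

theorem pbAdd {X Y : (Fin n → ℂ) × ℕ → ℂ} (hp0 : ∀ z ∈ S.V, 0 ≤ p z) (hX : PB S p X)
    (hY : PB S p Y) : PB S p (fun q => X q + Y q) := by
  obtain ⟨c, k, h1⟩ := hX
  obtain ⟨d, l, h2⟩ := hY
  refine ⟨|c| + |d|, k + l, fun q hq => ?_⟩
  have hq1 : 1 ≤ 1 + p q.1 := by have := hp0 q.1 hq.1; linarith
  have h3 : (1 + p q.1) ^ k ≤ (1 + p q.1) ^ (k + l) := pow_le_pow_right₀ hq1 (by omega)
  have h4 : (1 + p q.1) ^ l ≤ (1 + p q.1) ^ (k + l) := pow_le_pow_right₀ hq1 (by omega)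
  calc ‖X q + Y q‖ ≤ ‖X q‖ + ‖Y q‖ := norm_add_le _ _
    _ ≤ c * (1 + p q.1) ^ k + d * (1 + p q.1) ^ l := add_le_add (h1 q hq) (h2 q hq)
    _ ≤ |c| * (1 + p q.1) ^ k + |d| * (1 + p q.1) ^ l := by
      gcongr <;> exact le_abs_self _
    _ ≤ |c| * (1 + p q.1) ^ (k + l) + |d| * (1 + p q.1) ^ (k + l) := by gcongr
    _ = _ := by ring

theorem pbMul {X Y : (Fin n → ℂ) × ℕ → ℂ} (hp0 : ∀ z ∈ S.V, 0 ≤ p z) (hX : PB S p X)
    (hY : PB S p Y) : PB S p (fun q => X q * Y q) := by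
  obtain ⟨c, k, h1⟩ := hX
  obtain ⟨d, l, h2⟩ := hY
  refine ⟨|c| * |d|, k + l, fun q hq => ?_⟩
  have hq1 : 0 ≤ 1 + p q.1 := by have := hp0 q.1 hq.1; linarith
  calc ‖X q * Y q‖ = ‖X q‖ * ‖Y q‖ := norm_mul _ _
    _ ≤ (|c| * (1 + p q.1) ^ k) * (|d| * (1 + p q.1) ^ l) := by
      refine mul_le_mul ((h1 q hq).trans ?_) ((h2 q hq).trans ?_) (norm_nonneg _) (by positivity)
      · gcongr
        exact le_abs_self _
      · gcongr
        exact le_abs_self _
    _ = _ := by rw [pow_add]; ring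

theorem pbCongr {X Y : (Fin n → ℂ) × ℕ → ℂ} (hX : PB S p X) (h : ∀ q ∈ S.M, Y q = X q) :
    PB S p Y := by
  obtain ⟨c, k, h1⟩ := hX
  exact ⟨c, k, fun q hq => by rw [h q hq]; exact h1 q hq⟩

theorem hpMul {X Y : (Fin n → ℂ) × ℕ → ℂ} (hp0 : ∀ z ∈ S.V, 0 ≤ p z) (hX : HP S p X)
    (hY : HP S p Y) : HP S p (fun q => X q * Y q) where
  holo := hX.holo.mul hY.holo
  pb := pbMul hp0 hX.pb hY.pb
  dpb := fun j => by
    refine pbCongr (pbAdd hp0 (pbMul hp0 (hX.dpb j) hY.pb) (pbMul hp0 hX.pb (hY.dpb j))) ?_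
    intro q hq
    rw [D_mul (hX.holo.CD 1) (hY.holo.CD 1) hq]

theorem hpAdd {X Y : (Fin n → ℂ) × ℕ → ℂ} (hp0 : ∀ z ∈ S.V, 0 ≤ p z) (hX : HP S p X)
    (hY : HP S p Y) : HP S p (fun q => X q + Y q) where
  holo := hX.holo.add hY.holo
  pb := pbAdd hp0 hX.pb hY.pb
  dpb := fun j => by
    refine pbCongr (pbAdd hp0 (hX.dpb j) (hY.dpb j)) ?_
    intro q hq
    rw [D_add (hX.holo.CD 1) (hY.holo.CD 1) hq]

theorem hpCongr {X Y : (Fin n → ℂ) × ℕ → ℂ} (hX : HP S p X) (h : ∀ q ∈ S.M, Y q = X q) :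
    HP S p Y where
  holo := fun W s hs => (hX.holo W s hs).congr fun z hz =>
    h _ ⟨S.subset_dom hs hz, S.mem_fib hs z hz⟩
  pb := pbCongr hX.pb h
  dpb := fun j => pbCongr (hX.dpb j) fun q hq => D_congr h hq

theorem hpZero : HP S p (fun _ => 0) where
  holo := Holo.const 0
  pb := ⟨0, 0, fun q _ => by simp⟩
  dpb := fun j => ⟨0, 0, fun q hq => by
    have : S.D j (fun _ => (0 : ℂ)) q = 0 := by
      simp [Sheets.D, dz]
    rw [this]
    simp⟩

theorem hpSum {ι : Type*} (s : Finset ι) {X : ι → (Fin n → ℂ) × ℕ → ℂ}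
    (hp0 : ∀ z ∈ S.V, 0 ≤ p z) (hX : ∀ i ∈ s, HP S p (X i)) :
    HP S p (fun q => ∑ i ∈ s, X i q) := by
  classical
  induction s using Finset.induction_on with
  | empty => simpa using (hpZero (S := S) (p := p))
  | insert i s hi ih =>
    have h1 := hpAdd hp0 (hX i (Finset.mem_insert_self i s))
      (ih fun j hj => hX j (Finset.mem_insert_of_mem hj))
    refine hpCongr h1 fun q _ => ?_
    rw [Finset.sum_insert hi]

theorem mv_diff (g : MvPolynomial (Fin n) ℂ) : Differentiable ℂ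
    (fun z : Fin n → ℂ => MvPolynomial.eval z g) := by
  induction g using MvPolynomial.induction_on with
  | C a => simp
  | add p q hp hq =>
    simp only [map_add]
    exact hp.add hq
  | mul_X p i hp =>
    simp only [map_mul, MvPolynomial.eval_X]
    exact hp.mul (differentiable_apply i)

theorem mv_fderiv (g : MvPolynomial (Fin n) ℂ) (z : Fin n → ℂ) (j : Fin n) :
    fderiv ℂ (fun z : Fin n → ℂ => MvPolynomial.eval z g) z (Pi.single j 1) =
      MvPolynomial.eval z (MvPolynomial.pderiv j g) := by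
  induction g using MvPolynomial.induction_on with
  | C a => simp
  | add p q hp hq =>
    simp only [map_add]
    rw [fderiv_fun_add (mv_diff p z) (mv_diff q z), ContinuousLinearMap.add_apply, hp, hq]
  | mul_X p i hp =>
    simp only [map_mul, MvPolynomial.eval_X]
    rw [fderiv_fun_mul (mv_diff p z) (differentiable_apply i z), ContinuousLinearMap.add_apply,
      ContinuousLinearMap.smul_apply, ContinuousLinearMap.smul_apply, hp, Derivation.leibniz,
      MvPolynomial.pderiv_X]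
    have h1 : fderiv ℂ (fun z : Fin n → ℂ => z i) z (Pi.single j 1) =
        (Pi.single j (1 : ℂ) : Fin n → ℂ) i := by
      have : (fun z : Fin n → ℂ => z i) = fun z => (ContinuousLinearMap.proj (R := ℂ)
        (φ := fun _ : Fin n => ℂ) i) z := rfl
      rw [this, ContinuousLinearMap.fderiv]
      rfl
    rw [h1]
    simp only [smul_eq_mul, map_add, map_mul, MvPolynomial.eval_X]
    by_cases hij : i = j
    · subst hij
      simp
    · simp [Pi.single_apply, hij, Ne.symm hij]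

/-- Polynomials have polynomial growth. -/
theorem hpPoly (hpz : ∀ z ∈ S.V, ‖z‖ ^ 2 ≤ p z) (g : MvPolynomial (Fin n) ℂ) :
    HP S p (fun q => MvPolynomial.eval q.1 g) := by
  have hpb : ∀ g : MvPolynomial (Fin n) ℂ, PB S p (fun q => MvPolynomial.eval q.1 g) := by
    intro g
    obtain ⟨A, d, hA, h1, -⟩ := mv_growth g
    refine ⟨A * 2 ^ d, d, fun q hq => (h1 q.1).trans ?_⟩
    have h2 := hpz q.1 hq.1
    have h3 : 1 + ‖q.1‖ ≤ 2 * (1 + p q.1) := by nlinarith [norm_nonneg q.1, sq_nonneg (‖q.1‖ - 1)]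
    have h4 : (1 + ‖q.1‖) ^ d ≤ (2 * (1 + p q.1)) ^ d := pow_le_pow_left₀ (by positivity) h3 d
    calc A * (1 + ‖q.1‖) ^ d ≤ A * (2 * (1 + p q.1)) ^ d := by gcongr
      _ = _ := by rw [mul_pow]; ring
  refine ⟨Holo.fst (mv_diff g).differentiableOn, hpb g, fun j => ?_⟩
  refine pbCongr (hpb (MvPolynomial.pderiv j g)) fun q hq => ?_
  have h1 : S.D j (fun q => MvPolynomial.eval q.1 g) q =
      dz j (fun z => MvPolynomial.eval z g) q.1 := rfl
  rw [h1, dz_holo (mv_diff g q.1), mv_fderiv]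

theorem hpInv {X : (Fin n → ℂ) × ℕ → ℂ} (hp0 : ∀ z ∈ S.V, 0 ≤ p z) (hX : HP S p X)
    (h0 : ∀ q ∈ S.M, X q ≠ 0) (hi : PB S p (fun q => (X q)⁻¹)) : HP S p (fun q => (X q)⁻¹) where
  holo := hX.holo.inv h0
  pb := hi
  dpb := fun j => by
    have h1 := pbMul hp0 (pbMul hp0 hi hi) (hX.dpb j)
    obtain ⟨c, k, h2⟩ := h1
    refine ⟨c, k, fun q hq => ?_⟩
    have h3 : S.D j (fun q => X q * (X q)⁻¹) q = 0 := by
      rw [D_congr (Y := fun q => X q * (X q)⁻¹) (X := fun _ => (1 : ℂ))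
        (fun q hq => mul_inv_cancel₀ (h0 q hq)) hq]
      simp [Sheets.D, dz]
    rw [D_mul (hX.holo.CD 1) ((hX.holo.inv h0).CD 1) hq] at h3
    have h4 : S.D j (fun q => (X q)⁻¹) q = -((X q)⁻¹ * (X q)⁻¹ * S.D j X q) := by
      have h5 := h0 q hq
      field_simp at h3 ⊢
      linear_combination h3
    rw [h4, norm_neg]
    exact h2 q hq

/-- Square integrable holomorphic functions with polynomial weights have polynomial growth. -/
theorem hp_of_A2 (T : TrData S h p A a b c e f) (hpz : ∀ z ∈ S.V, ‖z‖ ^ 2 ≤ p z)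
    (hf : ∀ i, HP S p (f i)) (hh : PB S p (fun q => (MvPolynomial.eval q.1 h)⁻¹)) (k : ℕ)
    {F : (Fin n → ℂ) × ℕ → ℂ}
    (hF : F ∈ A2 S (fun q => ENNReal.ofReal (((1 + p q.1) ^ k)⁻¹))) : HP S p F := by
  obtain ⟨h1, h2, h3⟩ := mem_A2.1 hF
  rw [T.lint h1 k] at h3
  obtain ⟨d, hd⟩ := rep_poly T
  obtain ⟨P, -, hP⟩ := hd h1 h3
  have hp0 := T.p_nonneg
  have hV : ∀ q ∈ S.M, MvPolynomial.eval q.1 h ≠ 0 := fun q hq => (T.V q.1).1 hq.1
  have hinv : HP S p (fun q => (MvPolynomial.eval q.1 h)⁻¹) :=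
    hpInv hp0 (hpPoly hpz h) hV hh
  have hpow : ∀ m : ℕ, HP S p (fun q => ((MvPolynomial.eval q.1 h)⁻¹) ^ m) := by
    intro m
    induction m with
    | zero =>
      refine hpCongr (hpPoly hpz 1) fun q _ => ?_
      simp
    | succ m ih =>
      refine hpCongr (hpMul hp0 ih hinv) fun q _ => ?_
      rw [pow_succ]
  have h4 := hpMul hp0 (hpow (n + 1 + b * (k + a)))
    (hpSum Finset.univ hp0 fun i _ => hpMul hp0 (hpPoly hpz (P i)) (hf i))
  refine hpCongr h4 fun q hq => ?_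
  rw [← hP q hq, ← mul_assoc, ← mul_pow, inv_mul_cancel₀ (hV q hq), one_pow, one_mul]

end Vale.Agent.P299.H570
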