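import Vale.Agent.P299.H570.Mean

set_option linter.all false

open MeasureTheory Filter Topology
open scoped ENNReal NNReal ComplexConjugate

namespace Vale.Agent.P299.H570

variable {n : ℕ}

/-- Growth and Lipschitz estimates for polynomials. -/
theorem mv_growth (h : MvPolynomial (Fin n) ℂ) : ∃ (A : ℝ) (d : ℕ), 1 ≤ A ∧
    (∀ z, ‖MvPolynomial.eval z h‖ ≤ A * (1 + ‖z‖) ^ d) ∧
    (∀ z z', ‖z' - z‖ ≤ 1 → ‖MvPolynomial.eval z' h - MvPolynomial.eval z h‖ ≤
      A * (1 + ‖z‖) ^ d * ‖z' - z‖) := by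
  induction h using MvPolynomial.induction_on with
  | C a =>
    refine ⟨1 + ‖a‖, 0, by have := norm_nonneg a; linarith, fun z => ?_, fun z z' _ => ?_⟩
    · simp
    · simp only [MvPolynomial.eval_C, sub_self, norm_zero, pow_zero, mul_one]
      have := norm_nonneg a
      positivity
  | add p q hp hq =>
    obtain ⟨A, d, hA, h1, h2⟩ := hp
    obtain ⟨B, e, hB, h3, h4⟩ := hq
    have hm : ∀ z : Fin n → ℂ, A * (1 + ‖z‖) ^ d + B * (1 + ‖z‖) ^ e ≤
        (A + B) * (1 + ‖z‖) ^ (d + e) := by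
      intro z
      have hz : (1 : ℝ) ≤ 1 + ‖z‖ := by have := norm_nonneg z; linarith
      have h5 : (1 + ‖z‖) ^ d ≤ (1 + ‖z‖) ^ (d + e) := pow_le_pow_right₀ hz (by omega)
      have h6 : (1 + ‖z‖) ^ e ≤ (1 + ‖z‖) ^ (d + e) := pow_le_pow_right₀ hz (by omega)
      have h7 : A * (1 + ‖z‖) ^ d ≤ A * (1 + ‖z‖) ^ (d + e) := by gcongr
      have h8 : B * (1 + ‖z‖) ^ e ≤ B * (1 + ‖z‖) ^ (d + e) := by gcongr
      linarith
    refine ⟨A + B, d + e, by linarith, fun z => ?_, fun z z' hz => ?_⟩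
    · rw [map_add]
      exact ((norm_add_le _ _).trans (add_le_add (h1 z) (h3 z))).trans (hm z)
    · rw [map_add, map_add, add_sub_add_comm]
      refine ((norm_add_le _ _).trans (add_le_add (h2 z z' hz) (h4 z z' hz))).trans ?_
      rw [← add_mul]
      exact mul_le_mul_of_nonneg_right (hm z) (norm_nonneg _)
  | mul_X p i hp =>
    obtain ⟨A, d, hA, h1, h2⟩ := hp
    refine ⟨2 * A, d + 1, by linarith, fun z => ?_, fun z z' hz => ?_⟩
    · rw [map_mul, MvPolynomial.eval_X, norm_mul]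
      have h3 : ‖z i‖ ≤ 1 + ‖z‖ := (norm_le_pi_norm z i).trans (by linarith)
      have h4 := norm_nonneg z
      calc ‖MvPolynomial.eval z p‖ * ‖z i‖ ≤ (A * (1 + ‖z‖) ^ d) * (1 + ‖z‖) :=
            mul_le_mul (h1 z) h3 (norm_nonneg _) (by positivity)
        _ = 1 * (A * (1 + ‖z‖) ^ (d + 1)) := by rw [pow_succ]; ring
        _ ≤ 2 * (A * (1 + ‖z‖) ^ (d + 1)) := by gcongr; norm_num
        _ = _ := by ring
    · rw [map_mul, map_mul, MvPolynomial.eval_X, MvPolynomial.eval_X]
      have h4 := norm_nonneg z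
      have h5 : ‖z' i‖ ≤ 1 + ‖z‖ := by
        calc ‖z' i‖ ≤ ‖z'‖ := norm_le_pi_norm z' i
          _ = ‖(z' - z) + z‖ := by rw [sub_add_cancel]
          _ ≤ ‖z' - z‖ + ‖z‖ := norm_add_le _ _
          _ ≤ 1 + ‖z‖ := by linarith
      have h6 : ‖z' i - z i‖ ≤ ‖z' - z‖ := norm_le_pi_norm (z' - z) i
      have h7 : MvPolynomial.eval z' p * z' i - MvPolynomial.eval z p * z i =
          (MvPolynomial.eval z' p - MvPolynomial.eval z p) * z' i +
            MvPolynomial.eval z p * (z' i - z i) := by ring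
      rw [h7]
      have h8 : ‖(MvPolynomial.eval z' p - MvPolynomial.eval z p) * z' i‖ ≤
          (A * (1 + ‖z‖) ^ d * ‖z' - z‖) * (1 + ‖z‖) := by
        rw [norm_mul]
        exact mul_le_mul (h2 z z' hz) h5 (norm_nonneg _) (by positivity)
      have h9 : ‖MvPolynomial.eval z p * (z' i - z i)‖ ≤
          (A * (1 + ‖z‖) ^ d) * ‖z' - z‖ := by
        rw [norm_mul]
        exact mul_le_mul (h1 z) h6 (norm_nonneg _) (by positivity)
      refine (norm_add_le _ _).trans ((add_le_add h8 h9).trans ?_)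
      have h10 : (A * (1 + ‖z‖) ^ d) * ‖z' - z‖ ≤ (A * (1 + ‖z‖) ^ d * ‖z' - z‖) * (1 + ‖z‖) := by
        nlinarith [norm_nonneg (z' - z), mul_nonneg (mul_nonneg (mul_nonneg (by linarith : (0 : ℝ) ≤ A)
          (pow_nonneg (by positivity : (0 : ℝ) ≤ 1 + ‖z‖) d)) (norm_nonneg (z' - z))) h4]
      calc (A * (1 + ‖z‖) ^ d * ‖z' - z‖) * (1 + ‖z‖) + (A * (1 + ‖z‖) ^ d) * ‖z' - z‖
          ≤ (A * (1 + ‖z‖) ^ d * ‖z' - z‖) * (1 + ‖z‖) +
            (A * (1 + ‖z‖) ^ d * ‖z' - z‖) * (1 + ‖z‖) := by gcongr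
        _ = _ := by rw [pow_succ]; ring

/-- The restriction of a polynomial to a line. -/
theorem mv_line (h : MvPolynomial (Fin n) ℂ) (z : Fin n → ℂ) (j : Fin n) :
    ∃ q : Polynomial ℂ, ∀ t, MvPolynomial.eval (Function.update z j t) h = q.eval t := by
  classical
  induction h using MvPolynomial.induction_on with
  | C a => exact ⟨Polynomial.C a, fun t => by simp⟩
  | add p q hp hq =>
    obtain ⟨P, hP⟩ := hp
    obtain ⟨Q, hQ⟩ := hq
    exact ⟨P + Q, fun t => by rw [map_add, hP, hQ, Polynomial.eval_add]⟩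
  | mul_X p i hp =>
    obtain ⟨P, hP⟩ := hp
    by_cases hi : i = j
    · subst hi
      exact ⟨P * Polynomial.X, fun t => by
        rw [map_mul, hP, MvPolynomial.eval_X, Function.update_self, Polynomial.eval_mul,
          Polynomial.eval_X]⟩
    · exact ⟨P * Polynomial.C (z i), fun t => by
        rw [map_mul, hP, MvPolynomial.eval_X, Function.update_of_ne hi, Polynomial.eval_mul,
          Polynomial.eval_C]⟩

/-- Pointwise bounds for square integrable holomorphic functions off a hypersurface. -/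
theorem ptw {h : MvPolynomial (Fin n) ℂ} {A : ℝ} {d : ℕ} (hA : 1 ≤ A)
    (h1 : ∀ z, ‖MvPolynomial.eval z h‖ ≤ A * (1 + ‖z‖) ^ d)
    (h2 : ∀ z z', ‖z' - z‖ ≤ 1 → ‖MvPolynomial.eval z' h - MvPolynomial.eval z h‖ ≤
      A * (1 + ‖z‖) ^ d * ‖z' - z‖)
    {g : (Fin n → ℂ) → ℂ} (hg : DifferentiableOn ℂ g {z | MvPolynomial.eval z h ≠ 0}) {K : ℕ}
    (hI : ∫⁻ z in {z | MvPolynomial.eval z h ≠ 0},
      ENNReal.ofReal (‖g z‖ ^ 2 * ((1 + ‖z‖) ^ K)⁻¹) < ⊤) :
    ∃ B : ℝ, 0 ≤ B ∧ ∀ z, MvPolynomial.eval z h ≠ 0 →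
      ‖MvPolynomial.eval z h‖ ^ (2 * n) * ‖g z‖ ^ 2 ≤ B * (1 + ‖z‖) ^ (2 * n * d + K) := by
  set V : Set (Fin n → ℂ) := {z | MvPolynomial.eval z h ≠ 0} with hV
  set I := ∫⁻ z in V, ENNReal.ofReal (‖g z‖ ^ 2 * ((1 + ‖z‖) ^ K)⁻¹) with hIdef
  set v := volume (Metric.ball (0 : Fin n → ℂ) 1) with hv
  have hv0 : v ≠ 0 := (Metric.measure_ball_pos volume 0 one_pos).ne'
  have hvt : v ≠ ⊤ := measure_ball_lt_top.ne
  have hvr : 0 < v.toReal := ENNReal.toReal_pos hv0 hvt
  refine ⟨2 ^ K * I.toReal * (2 * A) ^ (2 * n) / v.toReal, by positivity, ?_⟩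
  intro z hz
  have hz1 : 0 < 1 + ‖z‖ := by positivity
  have hh : 0 < ‖MvPolynomial.eval z h‖ := norm_pos_iff.2 hz
  set r : ℝ := ‖MvPolynomial.eval z h‖ / (2 * A * (1 + ‖z‖) ^ d) with hr
  have hden : 0 < 2 * A * (1 + ‖z‖) ^ d := by positivity
  have hr0 : 0 < r := div_pos hh hden
  have hr1 : r ≤ 1 / 2 := by
    rw [hr, div_le_iff₀ hden]
    have := h1 z
    linarith
  have hball : Metric.ball z r ⊆ V := by
    intro z' hz'
    rw [Metric.mem_ball, dist_eq_norm] at hz'
    have h3 := h2 z z' (by linarith)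
    have h4 : A * (1 + ‖z‖) ^ d * ‖z' - z‖ ≤ ‖MvPolynomial.eval z h‖ / 2 := by
      calc A * (1 + ‖z‖) ^ d * ‖z' - z‖ ≤ A * (1 + ‖z‖) ^ d * r := by gcongr
        _ = ‖MvPolynomial.eval z h‖ / 2 := by
          rw [hr]
          field_simp
    intro h0
    rw [h0, zero_sub, norm_neg] at h3
    linarith
  have hm := mean_value1 hr0 (hg.mono hball)
  have h5 : ∫⁻ z' in Metric.ball z r, ENNReal.ofReal (‖g z'‖ ^ 2) ≤
      ENNReal.ofReal ((2 + ‖z‖) ^ K) * I := by
    rw [hIdef, ← lintegral_const_mul' _ _ ENNReal.ofReal_ne_top]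
    calc ∫⁻ z' in Metric.ball z r, ENNReal.ofReal (‖g z'‖ ^ 2)
        ≤ ∫⁻ z' in Metric.ball z r, ENNReal.ofReal ((2 + ‖z‖) ^ K) *
          ENNReal.ofReal (‖g z'‖ ^ 2 * ((1 + ‖z'‖) ^ K)⁻¹) := by
          refine setLIntegral_mono' Metric.isOpen_ball.measurableSet ?_
          intro z' hz'
          rw [← ENNReal.ofReal_mul (by positivity)]
          apply ENNReal.ofReal_le_ofReal
          rw [Metric.mem_ball, dist_eq_norm] at hz'
          have h6 : 1 + ‖z'‖ ≤ 2 + ‖z‖ := by
            have : ‖z'‖ ≤ ‖z' - z‖ + ‖z‖ := by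
              simpa using norm_add_le (z' - z) z
            linarith
          have h7 : (1 + ‖z'‖) ^ K ≤ (2 + ‖z‖) ^ K := pow_le_pow_left₀ (by positivity) h6 K
          have h8 : 0 < (1 + ‖z'‖) ^ K := by positivity
          have h9 : 1 ≤ (2 + ‖z‖) ^ K * ((1 + ‖z'‖) ^ K)⁻¹ := by
            rw [← div_eq_mul_inv, one_le_div h8]
            exact h7
          calc ‖g z'‖ ^ 2 = ‖g z'‖ ^ 2 * 1 := by ring
            _ ≤ ‖g z'‖ ^ 2 * ((2 + ‖z‖) ^ K * ((1 + ‖z'‖) ^ K)⁻¹) := by gcongr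
            _ = _ := by ring
      _ ≤ _ := lintegral_mono_set hball
  have h6 := hm.trans h5
  rw [← hv] at h6
  have hIt : I ≠ ⊤ := hI.ne
  rw [← ENNReal.ofReal_toReal hvt, ← ENNReal.ofReal_toReal hIt,
    ← ENNReal.ofReal_mul (by positivity), ← ENNReal.ofReal_mul (by positivity),
    ← ENNReal.ofReal_mul (by positivity), ENNReal.ofReal_le_ofReal_iff (by positivity)] at h6
  have h7 : (2 + ‖z‖) ^ K ≤ 2 ^ K * (1 + ‖z‖) ^ K := by
    rw [← mul_pow]
    exact pow_le_pow_left₀ (by positivity) (by linarith [norm_nonneg z]) K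
  have h8 : r ^ (2 * n) * ((2 * A) ^ (2 * n) * (1 + ‖z‖) ^ (2 * n * d)) =
      ‖MvPolynomial.eval z h‖ ^ (2 * n) := by
    rw [show (1 + ‖z‖) ^ (2 * n * d) = ((1 + ‖z‖) ^ d) ^ (2 * n) by rw [← pow_mul]; ring_nf,
      ← mul_pow, ← mul_pow, hr, div_mul_cancel₀ _ hden.ne']
  rw [← h8, pow_add]
  have h9 : ‖g z‖ ^ 2 * r ^ (2 * n) ≤ 2 ^ K * (1 + ‖z‖) ^ K * I.toReal / v.toReal := by
    rw [le_div_iff₀ hvr]
    calc ‖g z‖ ^ 2 * r ^ (2 * n) * v.toReal = ‖g z‖ ^ 2 * (r ^ (2 * n) * v.toReal) := by ring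
      _ ≤ (2 + ‖z‖) ^ K * I.toReal := h6
      _ ≤ _ := by gcongr
  calc r ^ (2 * n) * ((2 * A) ^ (2 * n) * (1 + ‖z‖) ^ (2 * n * d)) * ‖g z‖ ^ 2
      = (‖g z‖ ^ 2 * r ^ (2 * n)) * ((2 * A) ^ (2 * n) * (1 + ‖z‖) ^ (2 * n * d)) := by ring
    _ ≤ (2 ^ K * (1 + ‖z‖) ^ K * I.toReal / v.toReal) *
        ((2 * A) ^ (2 * n) * (1 + ‖z‖) ^ (2 * n * d)) := by gcongr
    _ = _ := by
      rw [mul_comm (2 * n) d]
      ring

/-- Square integrable holomorphic functions off a hypersurface, multiplied by a power of the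
equation, are polynomials. -/
theorem sepPoly_of_int {h : MvPolynomial (Fin n) ℂ} {A : ℝ} {d : ℕ} (hA : 1 ≤ A)
    (h1 : ∀ z, ‖MvPolynomial.eval z h‖ ≤ A * (1 + ‖z‖) ^ d)
    (h2 : ∀ z z', ‖z' - z‖ ≤ 1 → ‖MvPolynomial.eval z' h - MvPolynomial.eval z h‖ ≤
      A * (1 + ‖z‖) ^ d * ‖z' - z‖)
    {g : (Fin n → ℂ) → ℂ} (hg : DifferentiableOn ℂ g {z | MvPolynomial.eval z h ≠ 0}) {K : ℕ}
    (hI : ∫⁻ z in {z | MvPolynomial.eval z h ≠ 0},
      ENNReal.ofReal (‖g z‖ ^ 2 * ((1 + ‖z‖) ^ K)⁻¹) < ⊤) :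
    SepPoly ((n + 1) * d + K) (fun z => MvPolynomial.eval z h ^ (n + 1) * g z) := by
  classical
  obtain ⟨B, hB, hb⟩ := ptw hA h1 h2 hg hI
  have hb' : ∀ z, ‖MvPolynomial.eval z h ^ (n + 1) * g z‖ ^ 2 ≤
      B * (1 + ‖z‖) ^ (2 * n * d + K) * ‖MvPolynomial.eval z h‖ ^ 2 := by
    intro z
    by_cases hz : MvPolynomial.eval z h = 0
    · rw [hz]
      simp
    · have := hb z hz
      rw [norm_mul, norm_pow, mul_pow, ← pow_mul]
      calc ‖MvPolynomial.eval z h‖ ^ ((n + 1) * 2) * ‖g z‖ ^ 2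
          = (‖MvPolynomial.eval z h‖ ^ (2 * n) * ‖g z‖ ^ 2) * ‖MvPolynomial.eval z h‖ ^ 2 := by
            rw [show (n + 1) * 2 = 2 * n + 2 by ring, pow_add]
            ring
        _ ≤ _ := by gcongr
  have hb2 : ∀ z, ‖MvPolynomial.eval z h ^ (n + 1) * g z‖ ≤
      (Real.sqrt B * A) * (1 + ‖z‖) ^ ((n + 1) * d + K) := by
    intro z
    have hz1 : 1 ≤ 1 + ‖z‖ := by have := norm_nonneg z; linarith
    apply le_of_sq_le_sq _ (by positivity)
    refine (hb' z).trans ?_
    have h3 : ‖MvPolynomial.eval z h‖ ^ 2 ≤ (A * (1 + ‖z‖) ^ d) ^ 2 :=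
      pow_le_pow_left₀ (norm_nonneg _) (h1 z) 2
    calc B * (1 + ‖z‖) ^ (2 * n * d + K) * ‖MvPolynomial.eval z h‖ ^ 2
        ≤ B * (1 + ‖z‖) ^ (2 * n * d + K) * (A * (1 + ‖z‖) ^ d) ^ 2 := by gcongr
      _ = B * A ^ 2 * (1 + ‖z‖) ^ (2 * n * d + K + 2 * d) := by
        rw [mul_pow, ← pow_mul, mul_comm d 2, pow_add (1 + ‖z‖) (2 * n * d + K) (2 * d)]
        ring
      _ ≤ B * A ^ 2 * (1 + ‖z‖) ^ (2 * ((n + 1) * d + K)) := by
        have h4 : (1 + ‖z‖) ^ (2 * n * d + K + 2 * d) ≤ (1 + ‖z‖) ^ (2 * ((n + 1) * d + K)) :=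
          pow_le_pow_right₀ hz1 (by nlinarith)
        gcongr
      _ = _ := by
        rw [mul_pow, mul_pow, Real.sq_sqrt hB, ← pow_mul]
        ring
  intro z j
  set f : ℂ → ℂ := fun t => MvPolynomial.eval (Function.update z j t) h ^ (n + 1) *
    g (Function.update z j t) with hf
  have hupd : ∀ t, ‖Function.update z j t‖ ≤ ‖z‖ + ‖t‖ := by
    intro t
    rw [pi_norm_le_iff_of_nonneg (by positivity)]
    intro i
    by_cases hi : i = j
    · subst hi
      rw [Function.update_self]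
      have := norm_nonneg z
      linarith
    · rw [Function.update_of_ne hi]
      have := norm_le_pi_norm z i
      have := norm_nonneg t
      linarith
  have hcont : Continuous fun t : ℂ => Function.update z j t :=
    continuous_const.update j continuous_id
  obtain ⟨q, hq⟩ := mv_line h z j
  have hdiff : Differentiable ℂ f := by
    by_cases hq0 : q = 0
    · have : f = fun _ => 0 := by
        funext t
        rw [hf]
        simp only
        rw [hq, hq0]
        simp
      rw [this]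
      exact differentiable_const _
    · have hreg : ∀ t, q.eval t ≠ 0 → DifferentiableAt ℂ f t := by
        intro t ht
        have hmem : Function.update z j t ∈ {z | MvPolynomial.eval z h ≠ 0} := by
          show MvPolynomial.eval _ h ≠ 0
          rw [hq]
          exact ht
        have hopen : IsOpen {z : Fin n → ℂ | MvPolynomial.eval z h ≠ 0} :=
          isOpen_ne_fun (MvPolynomial.continuous_eval h) continuous_const
        have hu : DifferentiableAt ℂ (fun t : ℂ => Function.update z j t) t := by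
          rw [differentiableAt_pi]
          intro i
          by_cases hi : i = j
          · subst hi
            simp only [Function.update_self]
            exact differentiableAt_id
          · simp only [Function.update_of_ne hi]
            exact differentiableAt_const _
        have h3 : DifferentiableAt ℂ (fun t => g (Function.update z j t)) t :=
          (hg.differentiableAt (hopen.mem_nhds hmem)).comp t hu
        have h4 : DifferentiableAt ℂ (fun t => MvPolynomial.eval (Function.update z j t) h) t := by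
          simp_rw [hq]
          exact q.differentiable t
        exact (h4.pow _).mul h3
      intro t
      by_cases ht : q.eval t = 0
      · have hev : ∀ᶠ s in 𝓝[≠] t, DifferentiableAt ℂ f s := by
          have hfin : {s | q.eval s = 0}.Finite := by
            have := q.roots.toFinset.finite_toSet
            refine this.subset ?_
            intro s hs
            simp only [Finset.mem_coe, Multiset.mem_toFinset]
            exact (Polynomial.mem_roots hq0).2 hs
          have h3 : ∀ᶠ s in 𝓝[≠] t, s ∉ {s | q.eval s = 0} \ {t} := by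
            have h4 : IsClosed ({s | q.eval s = 0} \ {t}) := (hfin.subset Set.diff_subset).isClosed
            have h5 : t ∈ ({s | q.eval s = 0} \ {t})ᶜ := by simp
            exact mem_nhdsWithin_of_mem_nhds (h4.isOpen_compl.mem_nhds h5)
          filter_upwards [h3, self_mem_nhdsWithin] with s hs hst
          apply hreg
          intro h0
          exact hs ⟨h0, hst⟩
        have hft : f t = 0 := by
          rw [hf]
          simp only
          rw [hq, ht, zero_pow (by omega), zero_mul]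
        have hca : ContinuousAt f t := by
          rw [ContinuousAt, hft, tendsto_zero_iff_norm_tendsto_zero]
          have h3 : ∀ s, ‖f s‖ ≤ Real.sqrt (B * (1 + ‖Function.update z j s‖) ^ (2 * n * d + K) *
              ‖q.eval s‖ ^ 2) := by
            intro s
            apply Real.le_sqrt_of_sq_le
            have := hb' (Function.update z j s)
            rw [hq] at this
            rw [hf]
            simp only
            rw [hq]
            exact this
          have h4 : Tendsto (fun s => Real.sqrt (B * (1 + ‖Function.update z j s‖) ^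
              (2 * n * d + K) * ‖q.eval s‖ ^ 2)) (𝓝 t) (𝓝 0) := by
            have h5 : Continuous (fun s => Real.sqrt (B * (1 + ‖Function.update z j s‖) ^
                (2 * n * d + K) * ‖q.eval s‖ ^ 2)) := by
              have := q.continuous
              fun_prop
            have h6 := h5.tendsto t
            rw [ht, norm_zero] at h6
            simpa using h6
          exact squeeze_zero (fun s => norm_nonneg _) h3 h4
        exact (Complex.analyticAt_of_differentiable_on_punctured_nhds_of_continuousAt hev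
          hca).differentiableAt
      · exact hreg t ht
  obtain ⟨p, hp, hpe⟩ := entire_poly hdiff (C := (Real.sqrt B * A) *
    (1 + ‖z‖) ^ ((n + 1) * d + K)) (d := (n + 1) * d + K) (fun t => by
      refine (hb2 (Function.update z j t)).trans ?_
      rw [mul_assoc (Real.sqrt B * A), ← mul_pow]
      have h3 : 1 + ‖Function.update z j t‖ ≤ (1 + ‖z‖) * (1 + ‖t‖) := by
        have := hupd t
        nlinarith [norm_nonneg z, norm_nonneg t, mul_nonneg (norm_nonneg z) (norm_nonneg t)]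
      gcongr)
  exact ⟨p, hp, hpe⟩

end Vale.Agent.P299.H570
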