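import Vale.Agent.P299.H570.Ext
import Vale.Agent.P300.H435.L2.Meas

set_option linter.all false

open MeasureTheory Filter Topology
open scoped ENNReal NNReal ComplexConjugate

namespace Vale.Agent.P299.H570

open Vale.Agent.P300.L2 Vale.Agent.P300.L2.Sheets

variable {n N : ℕ}

/-- Trace data: `V = {h ≠ 0}`, holomorphic functions `e i` of polynomial growth and functions
`f i` with `F q = ∑ i, tr (F e_i) f_i` for every `F`. -/
structure TrData (S : Sheets n N) (h : MvPolynomial (Fin n) ℂ) (p : (Fin n → ℂ) → ℝ)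
    (A : ℝ) (a b c : ℕ) {r : ℕ} (e f : Fin r → (Fin n → ℂ) × ℕ → ℂ) : Prop where
  V : ∀ z, z ∈ S.V ↔ MvPolynomial.eval z h ≠ 0
  A1 : 1 ≤ A
  holo : ∀ i, S.Holo (e i)
  le : ∀ i, ∀ q ∈ S.M, ‖e i q‖ ^ 2 ≤ A * (1 + p q.1) ^ a
  rep : ∀ (F : (Fin n → ℂ) × ℕ → ℂ), ∀ q ∈ S.M,
    F q = ∑ i, S.fsum (fun q => F q * e i q) q.1 * f i q
  p_nonneg : ∀ z ∈ S.V, 0 ≤ p z
  p_cont : ContinuousOn p S.V
  p_le : ∀ z ∈ S.V, ‖MvPolynomial.eval z h‖ ^ (2 * b) * (1 + p z) ≤ A * (1 + ‖z‖) ^ c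

theorem card_fib_le {S : Sheets n N} {z : Fin n → ℂ} (hz : z ∈ S.V) : (S.fib z).card ≤ N := by
  obtain ⟨W, s, -, hzW, -, -, h⟩ := S.loc z hz
  rw [(h z hzW).2]
  exact Finset.card_image_le.trans (by simp)

variable {S : Sheets n N} {h : MvPolynomial (Fin n) ℂ} {p : (Fin n → ℂ) → ℝ}
  {A : ℝ} {a b c r : ℕ} {e f : Fin r → (Fin n → ℂ) × ℕ → ℂ}

/-- The traces of a square integrable holomorphic function are square integrable. -/
theorem tr_int (T : TrData S h p A a b c e f) {F : (Fin n → ℂ) × ℕ → ℂ} (hF : S.Holo F) {k : ℕ}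
    (hI : ∫⁻ q, ENNReal.ofReal (‖F q‖ ^ 2 * ((1 + p q.1) ^ k)⁻¹) ∂S.μ < ⊤) (i : Fin r) :
    ∫⁻ z in {z | MvPolynomial.eval z h ≠ 0}, ENNReal.ofReal
      (‖MvPolynomial.eval z h ^ (b * (k + a)) * S.fsum (fun q => F q * e i q) z‖ ^ 2 *
        ((1 + ‖z‖) ^ (c * (k + a)))⁻¹) < ⊤ := by
  have hVe : {z | MvPolynomial.eval z h ≠ 0} = S.V := by
    ext z
    exact (T.V z).symm
  rw [hVe]
  have hA0 : 0 ≤ A := zero_le_one.trans T.A1
  have hpC : S.CD 0 (fun q => ((1 + p q.1 : ℝ) : ℂ)) := by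
    intro W s hs
    have h1 : ContinuousOn p W := T.p_cont.mono (S.subset_dom hs)
    exact contDiffOn_zero.2 (Complex.continuous_ofReal.comp_continuousOn
      (continuousOn_const.add h1))
  have hmp : AEMeasurable (fun q => 1 + p q.1) S.μ := by
    have h1 := (aestronglyMeasurable_of_CD hpC).aemeasurable
    have h2 := Complex.measurable_re.comp_aemeasurable h1
    simpa [Function.comp_def] using h2
  have hmF : AEMeasurable F S.μ := (aestronglyMeasurable_of_CD (hF.CD 0)).aemeasurable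
  have hm : AEMeasurable (fun q => ENNReal.ofReal (‖F q‖ ^ 2 * ((1 + p q.1) ^ k)⁻¹)) S.μ :=
    ((hmF.norm.pow_const 2).mul (hmp.pow_const k).inv).ennreal_ofReal
  rw [lintegral_μ' hm] at hI
  set K : ℝ := N * A ^ (k + a + 1) with hK
  have hK0 : 0 ≤ K := by positivity
  calc ∫⁻ z in S.V, ENNReal.ofReal
        (‖MvPolynomial.eval z h ^ (b * (k + a)) * S.fsum (fun q => F q * e i q) z‖ ^ 2 *
          ((1 + ‖z‖) ^ (c * (k + a)))⁻¹)
      ≤ ∫⁻ z in S.V, ENNReal.ofReal K *
        ∑ w ∈ S.fib z, ENNReal.ofReal (‖F (z, w)‖ ^ 2 * ((1 + p z) ^ k)⁻¹) := by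
        refine setLIntegral_mono' S.isOpen.measurableSet ?_
        intro z hz
        rw [← ENNReal.ofReal_sum_of_nonneg (fun w _ => by
            have := T.p_nonneg z hz
            positivity),
          ← ENNReal.ofReal_mul hK0]
        apply ENNReal.ofReal_le_ofReal
        have hp0 := T.p_nonneg z hz
        have hp1 : 0 < 1 + p z := by linarith
        have hz1 : 0 < 1 + ‖z‖ := by positivity
        -- the sum over the fibre
        have h1 : ‖S.fsum (fun q => F q * e i q) z‖ ^ 2 ≤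
            N * (A * (1 + p z) ^ a * ∑ w ∈ S.fib z, ‖F (z, w)‖ ^ 2) := by
          calc ‖S.fsum (fun q => F q * e i q) z‖ ^ 2
              ≤ (∑ w ∈ S.fib z, ‖F (z, w) * e i (z, w)‖) ^ 2 := by
                rw [fsum]
                exact pow_le_pow_left₀ (norm_nonneg _) (norm_sum_le _ _) 2
            _ ≤ (S.fib z).card * ∑ w ∈ S.fib z, ‖F (z, w) * e i (z, w)‖ ^ 2 :=
                sq_sum_le_card_mul_sum_sq
            _ ≤ N * ∑ w ∈ S.fib z, ‖F (z, w) * e i (z, w)‖ ^ 2 := by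
                have : ((S.fib z).card : ℝ) ≤ N := by exact_mod_cast card_fib_le hz
                gcongr
            _ ≤ N * ∑ w ∈ S.fib z, ‖F (z, w)‖ ^ 2 * (A * (1 + p z) ^ a) := by
                gcongr with w hw
                rw [norm_mul, mul_pow]
                have := T.le i (z, w) ⟨hz, hw⟩
                gcongr
            _ = _ := by
                rw [← Finset.sum_mul]
                ring
        -- the power of `h`
        have h2 : ‖MvPolynomial.eval z h ^ (b * (k + a))‖ ^ 2 * ((1 + ‖z‖) ^ (c * (k + a)))⁻¹ ≤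
            A ^ (k + a) * ((1 + p z) ^ (k + a))⁻¹ := by
          rw [← div_eq_mul_inv, ← div_eq_mul_inv, div_le_div_iff₀ (by positivity) (by positivity)]
          rw [norm_pow, ← pow_mul, show b * (k + a) * 2 = (2 * b) * (k + a) by ring,
            pow_mul _ (2 * b) (k + a), pow_mul _ c (k + a), ← mul_pow, ← mul_pow]
          exact pow_le_pow_left₀ (by positivity) (T.p_le z hz) _
        rw [norm_mul, mul_pow]
        calc ‖MvPolynomial.eval z h ^ (b * (k + a))‖ ^ 2 *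
              ‖S.fsum (fun q => F q * e i q) z‖ ^ 2 * ((1 + ‖z‖) ^ (c * (k + a)))⁻¹
            = (‖MvPolynomial.eval z h ^ (b * (k + a))‖ ^ 2 * ((1 + ‖z‖) ^ (c * (k + a)))⁻¹) *
              ‖S.fsum (fun q => F q * e i q) z‖ ^ 2 := by ring
          _ ≤ (A ^ (k + a) * ((1 + p z) ^ (k + a))⁻¹) *
              (N * (A * (1 + p z) ^ a * ∑ w ∈ S.fib z, ‖F (z, w)‖ ^ 2)) := by gcongr
          _ = K * ∑ w ∈ S.fib z, ‖F (z, w)‖ ^ 2 * ((1 + p z) ^ k)⁻¹ := by
            rw [hK, ← Finset.sum_mul, pow_add (1 + p z) k a, pow_succ]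
            have h3 : (1 + p z) ^ a ≠ 0 := by positivity
            have h4 : (1 + p z) ^ k ≠ 0 := by positivity
            field_simp
    _ = ENNReal.ofReal K * ∫⁻ z in S.V, ∑ w ∈ S.fib z,
          ENNReal.ofReal (‖F (z, w)‖ ^ 2 * ((1 + p z) ^ k)⁻¹) :=
        lintegral_const_mul' _ _ ENNReal.ofReal_ne_top
    _ < ⊤ := ENNReal.mul_lt_top ENNReal.ofReal_lt_top hI

/-- The traces, multiplied by a power of `h`, are polynomials. -/
theorem tr_sepPoly (T : TrData S h p A a b c e f) : ∃ d : ℕ, ∀ {F : (Fin n → ℂ) × ℕ → ℂ},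
    S.Holo F → ∀ {k : ℕ}, ∫⁻ q, ENNReal.ofReal (‖F q‖ ^ 2 * ((1 + p q.1) ^ k)⁻¹) ∂S.μ < ⊤ →
    ∀ i : Fin r, SepPoly (d + c * (k + a)) (fun z => MvPolynomial.eval z h ^ (n + 1) *
      (MvPolynomial.eval z h ^ (b * (k + a)) * S.fsum (fun q => F q * e i q) z)) := by
  obtain ⟨B, d, hB, h1, h2⟩ := mv_growth h
  refine ⟨(n + 1) * d, ?_⟩
  intro F hF k hI i
  have hVe : {z | MvPolynomial.eval z h ≠ 0} = S.V := by
    ext z
    exact (T.V z).symm
  refine sepPoly_of_int hB h1 h2 ?_ (tr_int T hF hI i)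
  rw [hVe]
  have h3 : DifferentiableOn ℂ (fun z : Fin n → ℂ => MvPolynomial.eval z h) S.V := by
    intro z _
    have h4 : ∀ g : MvPolynomial (Fin n) ℂ, Differentiable ℂ
        (fun z : Fin n → ℂ => MvPolynomial.eval z g) := by
      intro g
      induction g using MvPolynomial.induction_on with
      | C a => simp
      | add p q hp hq =>
        simp only [map_add]
        exact hp.add hq
      | mul_X p i hp =>
        simp only [map_mul, MvPolynomial.eval_X]
        exact hp.mul (differentiable_apply i)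
    exact (h4 h z).differentiableWithinAt
  exact (h3.pow _).mul (differentiableOn_fsum (hF.mul (T.holo i)))

/-- Square integrable holomorphic functions with polynomial weights are algebraic. -/
theorem rep_poly (T : TrData S h p A a b c e f) : ∃ d : ℕ, ∀ {F : (Fin n → ℂ) × ℕ → ℂ},
    S.Holo F → ∀ {k : ℕ}, ∫⁻ q, ENNReal.ofReal (‖F q‖ ^ 2 * ((1 + p q.1) ^ k)⁻¹) ∂S.μ < ⊤ →
    ∃ P : Fin r → MvPolynomial (Fin n) ℂ, (∀ i j, (P i).degreeOf j ≤ d + c * (k + a)) ∧
      ∀ q ∈ S.M, MvPolynomial.eval q.1 h ^ (n + 1 + b * (k + a)) * F q =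
        ∑ i, MvPolynomial.eval q.1 (P i) * f i q := by
  obtain ⟨d, hd⟩ := tr_sepPoly T
  refine ⟨d, fun {F} hF {k} hI => ?_⟩
  choose P hP hPe using fun i => (hd hF hI i).exists_poly
  refine ⟨P, hP, fun q hq => ?_⟩
  rw [T.rep F q hq, Finset.mul_sum]
  refine Finset.sum_congr rfl fun i _ => ?_
  rw [← hPe, pow_add]
  ring

/-- **The growth bound.** Spaces of square integrable holomorphic functions with polynomial
weights on a finite cover of `{h ≠ 0} ⊆ ℂⁿ` have finite dimension, at most `C (1 + k)ⁿ`. -/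
theorem growth (T : TrData S h p A a b c e f) : ∃ C : ℕ, ∀ (k : ℕ)
    (W : Submodule ℂ ((Fin n → ℂ) × ℕ → ℂ)),
    (∀ F ∈ W, S.Holo F ∧ (∀ q, q ∉ S.M → F q = 0) ∧
      ∫⁻ q, ENNReal.ofReal (‖F q‖ ^ 2 * ((1 + p q.1) ^ k)⁻¹) ∂S.μ < ⊤) →
    Module.Finite ℂ W ∧ Module.finrank ℂ W ≤ C * (1 + k) ^ n := by
  classical
  obtain ⟨d, hd⟩ := tr_sepPoly T
  refine ⟨r * (d + c * (a + 1) + 1) ^ n, ?_⟩
  intro k W hW
  set D : ℕ := d + c * (k + a) with hD
  -- evaluation of the traces at the grid points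
  let Λ : W →ₗ[ℂ] (Fin r × (Fin n → Fin (D + 1)) → ℂ) :=
    { toFun := fun F x => MvPolynomial.eval (gpt x.2) h ^ (n + 1) *
        (MvPolynomial.eval (gpt x.2) h ^ (b * (k + a)) *
          S.fsum (fun q => (F : (Fin n → ℂ) × ℕ → ℂ) q * e x.1 q) (gpt x.2))
      map_add' := by
        intro F G
        funext x
        simp only [Submodule.coe_add, Pi.add_apply, fsum, add_mul, Finset.sum_add_distrib]
        ring
      map_smul' := by
        intro t F
        funext x
        have h1 : ∑ w ∈ S.fib (gpt x.2), (t * (F : (Fin n → ℂ) × ℕ → ℂ) (gpt x.2, w) *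
            e x.1 (gpt x.2, w)) = t * ∑ w ∈ S.fib (gpt x.2),
            ((F : (Fin n → ℂ) × ℕ → ℂ) (gpt x.2, w) * e x.1 (gpt x.2, w)) := by
          rw [Finset.mul_sum]
          exact Finset.sum_congr rfl fun w _ => by ring
        simp only [Submodule.coe_smul, Pi.smul_apply, smul_eq_mul, fsum, RingHom.id_apply, h1]
        ring }
  have hΛ : Function.Injective Λ := by
    rw [← LinearMap.ker_eq_bot, LinearMap.ker_eq_bot']
    intro F hF
    obtain ⟨hH, h0, hI⟩ := hW F F.2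
    apply Subtype.ext
    funext q
    show (F : (Fin n → ℂ) × ℕ → ℂ) q = 0
    by_cases hq : q ∈ S.M
    · refine (T.rep (F : (Fin n → ℂ) × ℕ → ℂ) q hq).trans ?_
      refine Finset.sum_eq_zero fun i _ => ?_
      have h1 := (hd hH hI i).eq_zero (fun x => congrFun hF (i, x)) q.1
      have h2 : MvPolynomial.eval q.1 h ≠ 0 := (T.V q.1).1 hq.1
      have h3 := (mul_eq_zero.1 ((mul_eq_zero.1 h1).resolve_left (pow_ne_zero _ h2))).resolve_left
        (pow_ne_zero _ h2)
      rw [h3, zero_mul]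
    · exact h0 q hq
  have hfin : Module.Finite ℂ W := Module.Finite.of_injective Λ hΛ
  refine ⟨hfin, ?_⟩
  have h1 := LinearMap.finrank_le_finrank_of_injective hΛ
  rw [Module.finrank_fintype_fun_eq_card, Fintype.card_prod, Fintype.card_fin,
    Fintype.card_fun, Fintype.card_fin, Fintype.card_fin] at h1
  refine h1.trans ?_
  rw [mul_assoc, ← mul_pow]
  refine Nat.mul_le_mul_left r (Nat.pow_le_pow_left ?_ n)
  rw [hD]
  nlinarith [Nat.zero_le (d * k), Nat.zero_le (c * k), Nat.zero_le (c * a * k), Nat.zero_le c,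
    Nat.zero_le (c * a)]

end Vale.Agent.P299.H570
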