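import Vale.Agent.P299.H570.SepPoly

set_option linter.all false

open MeasureTheory Filter Topology
open scoped ENNReal NNReal ComplexConjugate

namespace Vale.Agent.P299.H570

variable {n : ℕ}

/-- Multiplication by a unit complex number preserves the volume. -/
theorem measurePreserving_unit_smul {c : ℂ} (hc : ‖c‖ = 1) :
    MeasurePreserving (fun v : Fin n → ℂ => c • v) volume volume := by
  have h1 : MeasurePreserving (fun z : ℂ => c * z) volume volume := by
    have h2 := (rotation (⟨c, mem_sphere_zero_iff_norm.2 hc⟩ : Circle)).measurePreserving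
    exact h2
  exact volume_preserving_pi (fun _ : Fin n => h1)

theorem norm_sq_ofReal (x : ℂ) : ENNReal.ofReal (‖x‖ ^ 2) = ‖x ^ 2‖ₑ := by
  rw [← ofReal_norm, norm_pow]

/-- The mean value property on a circle. -/
theorem mean_circle {r : ℝ} {z₀ : Fin n → ℂ} {G : (Fin n → ℂ) → ℂ}
    (hG : DifferentiableOn ℂ G (Metric.ball z₀ r)) {v : Fin n → ℂ}
    (hv : v ∈ Metric.ball (0 : Fin n → ℂ) r) :
    ∫ θ in (0 : ℝ)..2 * Real.pi, G (z₀ + circleMap 0 1 θ • v) ^ 2 = (2 * Real.pi) * G z₀ ^ 2 := by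
  rw [mem_ball_zero_iff] at hv
  have hd : DifferentiableOn ℂ (fun t : ℂ => G (z₀ + t • v) ^ 2) (Metric.closedBall 0 1) := by
    apply DifferentiableOn.pow
    refine hG.comp (by fun_prop) ?_
    intro t ht
    rw [mem_closedBall_zero_iff] at ht
    rw [Metric.mem_ball, dist_eq_norm, add_sub_cancel_left, norm_smul]
    calc ‖t‖ * ‖v‖ ≤ 1 * ‖v‖ := mul_le_mul_of_nonneg_right ht (norm_nonneg _)
      _ < r := by rwa [one_mul]
  have h1 : DiffContOnCl ℂ (fun t : ℂ => G (z₀ + t • v) ^ 2) (Metric.ball 0 |1|) := by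
    rw [abs_one]
    exact hd.diffContOnCl_ball le_rfl
  have h2 := h1.circleAverage
  rw [Real.circleAverage_def] at h2
  rw [zero_smul, add_zero] at h2
  have h3 : (2 * Real.pi : ℝ) ≠ 0 := by positivity
  rw [← h2, Complex.real_smul, ← mul_assoc]
  have h4 : (2 * (Real.pi : ℂ)) * (((2 * Real.pi)⁻¹ : ℝ) : ℂ) = 1 := by
    rw [Complex.ofReal_inv]
    push_cast
    have : (2 * (Real.pi : ℂ)) ≠ 0 := by exact_mod_cast h3
    exact mul_inv_cancel₀ this
  rw [h4, one_mul]

/-- Mean value inequality for circled weights. -/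
theorem mean_value {w : (Fin n → ℂ) → ℝ≥0∞} (hw : Measurable w)
    (hwc : ∀ (c : ℂ) (v : Fin n → ℂ), ‖c‖ = 1 → w (c • v) = w v) {r : ℝ} (hr : 0 < r)
    {z₀ : Fin n → ℂ} {G : (Fin n → ℂ) → ℂ} (hG : DifferentiableOn ℂ G (Metric.ball z₀ r)) :
    ENNReal.ofReal (‖G z₀‖ ^ 2) * ∫⁻ v in Metric.ball (0 : Fin n → ℂ) r, w v ≤
      ∫⁻ v in Metric.ball (0 : Fin n → ℂ) r, ENNReal.ofReal (‖G (z₀ + v)‖ ^ 2) * w v := by
  classical
  set H : (Fin n → ℂ) → ℝ≥0∞ := (Metric.ball z₀ r).piecewise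
    (fun z => ENNReal.ofReal (‖G z‖ ^ 2)) (fun _ => 0) with hH
  have hHm : Measurable H := by
    apply ContinuousOn.measurable_piecewise _ continuousOn_const Metric.isOpen_ball.measurableSet
    exact ENNReal.continuous_ofReal.comp_continuousOn (hG.continuousOn.norm.pow 2)
  have hHin : ∀ {v : Fin n → ℂ}, v ∈ Metric.ball (0 : Fin n → ℂ) r →
      H (z₀ + v) = ENNReal.ofReal (‖G (z₀ + v)‖ ^ 2) := by
    intro v hv
    rw [hH, Set.piecewise_eq_of_mem]
    rw [Metric.mem_ball, dist_eq_norm, add_sub_cancel_left]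
    exact mem_ball_zero_iff.1 hv
  have hHout : ∀ {v : Fin n → ℂ}, v ∉ Metric.ball (0 : Fin n → ℂ) r → H (z₀ + v) = 0 := by
    intro v hv
    rw [hH, Set.piecewise_eq_of_notMem]
    rw [Metric.mem_ball, dist_eq_norm, add_sub_cancel_left]
    exact fun h => hv (mem_ball_zero_iff.2 h)
  have hball : MeasurableSet (Metric.ball (0 : Fin n → ℂ) r) := Metric.isOpen_ball.measurableSet
  -- the right hand side as an integral over the whole space
  have hR : ∫⁻ v in Metric.ball (0 : Fin n → ℂ) r, ENNReal.ofReal (‖G (z₀ + v)‖ ^ 2) * w v =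
      ∫⁻ v, H (z₀ + v) * w v := by
    rw [← lintegral_indicator hball]
    apply lintegral_congr
    intro v
    by_cases hv : v ∈ Metric.ball (0 : Fin n → ℂ) r
    · rw [Set.indicator_of_mem hv, hHin hv]
    · rw [Set.indicator_of_notMem hv, hHout hv, zero_mul]
  have hrot : ∀ c : ℂ, ‖c‖ = 1 → ∫⁻ v, H (z₀ + c • v) * w v = ∫⁻ v, H (z₀ + v) * w v := by
    intro c hc
    have hm : Measurable fun v : Fin n → ℂ => H (z₀ + v) * w v :=
      (hHm.comp (measurable_const_add z₀)).mul hw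
    have h1 := (measurePreserving_unit_smul (n := n) hc).lintegral_comp hm
    rw [← h1]
    apply lintegral_congr
    intro v
    rw [hwc c v hc]
  set I : Set ℝ := Set.Ioc 0 (2 * Real.pi) with hI
  have hpi : (0 : ℝ) ≤ 2 * Real.pi := by positivity
  have hvol : volume I = ENNReal.ofReal (2 * Real.pi) := by
    rw [hI, Real.volume_Ioc, sub_zero]
  -- the double integral
  have hdouble : ∫⁻ θ in I, ∫⁻ v, H (z₀ + circleMap 0 1 θ • v) * w v =
      ENNReal.ofReal (2 * Real.pi) * ∫⁻ v, H (z₀ + v) * w v := by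
    have h1 : ∀ θ : ℝ, ∫⁻ v, H (z₀ + circleMap 0 1 θ • v) * w v = ∫⁻ v, H (z₀ + v) * w v := by
      intro θ
      apply hrot
      rw [norm_circleMap_zero, abs_one]
    simp only [h1]
    rw [lintegral_const, Measure.restrict_apply_univ, hvol, mul_comm]
  have hmeas : Measurable (Function.uncurry fun (θ : ℝ) (v : Fin n → ℂ) =>
      H (z₀ + circleMap 0 1 θ • v) * w v) := by
    have h1 : Measurable fun p : ℝ × (Fin n → ℂ) => z₀ + circleMap 0 1 p.1 • p.2 := by
      have h2 : Continuous fun p : ℝ × (Fin n → ℂ) => z₀ + circleMap 0 1 p.1 • p.2 :=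
        continuous_const.add (((continuous_circleMap 0 1).comp continuous_fst).smul continuous_snd)
      exact h2.measurable
    exact (hHm.comp h1).mul (hw.comp measurable_snd)
  have hswap : ∫⁻ θ in I, ∫⁻ v, H (z₀ + circleMap 0 1 θ • v) * w v =
      ∫⁻ v, ∫⁻ θ in I, H (z₀ + circleMap 0 1 θ • v) * w v :=
    lintegral_lintegral_swap hmeas.aemeasurable
  have hpt : ∀ v ∈ Metric.ball (0 : Fin n → ℂ) r,
      ENNReal.ofReal (2 * Real.pi) * (ENNReal.ofReal (‖G z₀‖ ^ 2) * w v) ≤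
      ∫⁻ θ in I, H (z₀ + circleMap 0 1 θ • v) * w v := by
    intro v hv
    have hm1 : Measurable fun θ : ℝ => H (z₀ + circleMap 0 1 θ • v) := by
      apply hHm.comp
      exact (continuous_const.add ((continuous_circleMap 0 1).smul continuous_const)).measurable
    rw [lintegral_mul_const _ hm1, ← mul_assoc]
    refine mul_le_mul_left ?_ _
    have h1 := mean_circle hG hv
    rw [intervalIntegral.integral_of_le hpi] at h1
    have h2 : ENNReal.ofReal (2 * Real.pi) * ENNReal.ofReal (‖G z₀‖ ^ 2) =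
        ‖(2 * Real.pi) * G z₀ ^ 2‖ₑ := by
      rw [enorm_mul, ← norm_sq_ofReal]
      congr 1
      rw [← ofReal_norm]
      congr 1
      have : (2 * (Real.pi : ℂ)) = ((2 * Real.pi : ℝ) : ℂ) := by push_cast; ring
      rw [this, Complex.norm_real, Real.norm_of_nonneg hpi]
    rw [h2, ← h1]
    refine (enorm_integral_le_lintegral_enorm _).trans (le_of_eq ?_)
    apply lintegral_congr
    intro θ
    rw [← norm_sq_ofReal, hHin]
    rw [mem_ball_zero_iff, norm_smul, norm_circleMap_zero, abs_one, one_mul]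
    exact mem_ball_zero_iff.1 hv
  have hfin : ENNReal.ofReal (2 * Real.pi) * (ENNReal.ofReal (‖G z₀‖ ^ 2) *
      ∫⁻ v in Metric.ball (0 : Fin n → ℂ) r, w v) ≤
      ENNReal.ofReal (2 * Real.pi) * ∫⁻ v, H (z₀ + v) * w v := by
    rw [← hdouble, hswap, ← lintegral_const_mul _ hw, ← lintegral_const_mul _ (hw.const_mul _)]
    calc ∫⁻ v in Metric.ball (0 : Fin n → ℂ) r,
          ENNReal.ofReal (2 * Real.pi) * (ENNReal.ofReal (‖G z₀‖ ^ 2) * w v)
        ≤ ∫⁻ v in Metric.ball (0 : Fin n → ℂ) r,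
          ∫⁻ θ in I, H (z₀ + circleMap 0 1 θ • v) * w v := setLIntegral_mono' hball hpt
      _ ≤ _ := setLIntegral_le_lintegral _ _
  rw [hR]
  have h2pi : ENNReal.ofReal (2 * Real.pi) ≠ 0 := by
    rw [Ne, ENNReal.ofReal_eq_zero, not_le]
    positivity
  exact (ENNReal.mul_le_mul_iff_right h2pi ENNReal.ofReal_ne_top).1 hfin


/-- The mean value inequality on a ball. -/
theorem mean_value1 {r : ℝ} (hr : 0 < r) {z₀ : Fin n → ℂ} {G : (Fin n → ℂ) → ℂ}
    (hG : DifferentiableOn ℂ G (Metric.ball z₀ r)) :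
    ENNReal.ofReal (‖G z₀‖ ^ 2) * (ENNReal.ofReal (r ^ (2 * n)) *
      volume (Metric.ball (0 : Fin n → ℂ) 1)) ≤
      ∫⁻ z in Metric.ball z₀ r, ENNReal.ofReal (‖G z‖ ^ 2) := by
  have h1 := mean_value (w := fun _ => 1) measurable_const (fun _ _ _ => rfl) hr hG
  simp only [lintegral_one, Measure.restrict_apply MeasurableSet.univ, Set.univ_inter,
    mul_one] at h1
  have h2 : volume (Metric.ball (0 : Fin n → ℂ) r) = ENNReal.ofReal (r ^ (2 * n)) *
      volume (Metric.ball (0 : Fin n → ℂ) 1) := by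
    rw [Measure.addHaar_ball_of_pos volume (0 : Fin n → ℂ) hr]
    congr 3
    rw [Module.finrank_pi_fintype]
    simp [Complex.finrank_real_complex, mul_comm]
  rw [h2] at h1
  refine h1.trans (le_of_eq ?_)
  have h3 := (measurePreserving_add_left (volume : Measure (Fin n → ℂ)) z₀).setLIntegral_comp_preimage_emb
    (measurableEmbedding_addLeft z₀) (fun z => ENNReal.ofReal (‖G z‖ ^ 2)) (Metric.ball z₀ r)
  rw [← h3]
  congr 2
  ext v
  simp [Metric.mem_ball, dist_eq_norm]

end Vale.Agent.P299.H570
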