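import Mathlib

set_option linter.all false

open MeasureTheory Filter Topology
open scoped ENNReal NNReal ComplexConjugate

namespace Vale.Agent.P299.H570

/-! ### Entire functions of polynomial growth in one variable -/

/-- An entire function of polynomial growth is a polynomial. -/
theorem entire_poly {f : ℂ → ℂ} (hf : Differentiable ℂ f) {C : ℝ} {d : ℕ}
    (hb : ∀ t, ‖f t‖ ≤ C * (1 + ‖t‖) ^ d) :
    ∃ p : Polynomial ℂ, p.natDegree ≤ d ∧ ∀ t, f t = p.eval t := by
  have hC : 0 ≤ C := by
    have := (norm_nonneg _).trans (hb 0)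
    simpa using this
  have hz : ∀ m, d < m → iteratedDeriv m f 0 = 0 := by
    intro m hm
    have h1 : ∀ R : ℝ, 1 ≤ R → ‖iteratedDeriv m f 0‖ ≤ (m.factorial * C * 2 ^ d) / R := by
      intro R hR
      have hR0 : 0 < R := by linarith
      have h2 := Complex.norm_iteratedDeriv_le_of_forall_mem_sphere_norm_le m hR0
        (hf.diffContOnCl (s := Metric.ball 0 R)) (C := C * (1 + R) ^ d) (fun z hz => by
          have := hb z
          rw [mem_sphere_zero_iff_norm.1 hz] at this
          exact this)
      refine h2.trans ?_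
      rw [div_le_div_iff₀ (by positivity) hR0]
      have h3 : (1 + R) ^ d ≤ (2 * R) ^ d := pow_le_pow_left₀ (by positivity) (by linarith) d
      have h4 : R ^ d * R ≤ R ^ m := by
        rw [← pow_succ]
        exact pow_le_pow_right₀ hR hm
      have h5 : (0 : ℝ) ≤ m.factorial * C := by positivity
      calc m.factorial * (C * (1 + R) ^ d) * R = (m.factorial * C) * ((1 + R) ^ d * R) := by ring
        _ ≤ (m.factorial * C) * ((2 * R) ^ d * R) := by gcongr
        _ = (m.factorial * C * 2 ^ d) * (R ^ d * R) := by rw [mul_pow]; ring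
        _ ≤ _ := by gcongr
    have h2 : Tendsto (fun R : ℝ => (m.factorial * C * 2 ^ d) / R) atTop (𝓝 0) :=
      tendsto_const_nhds.div_atTop tendsto_id
    have h3 : ‖iteratedDeriv m f 0‖ ≤ 0 :=
      ge_of_tendsto h2 (by filter_upwards [eventually_ge_atTop 1] with R hR using h1 R hR)
    exact norm_le_zero_iff.1 h3
  refine ⟨∑ i ∈ Finset.range (d + 1), Polynomial.monomial i (((i.factorial : ℂ))⁻¹ *
    iteratedDeriv i f 0), ?_, ?_⟩
  · refine Polynomial.natDegree_sum_le_of_forall_le _ _ ?_
    intro i hi
    exact (Polynomial.natDegree_monomial_le _).trans (by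
      have := Finset.mem_range.1 hi
      omega)
  · intro t
    have h1 := Complex.hasSum_taylorSeries_of_entire hf 0 t
    have h2 : HasSum (fun n : ℕ => ((n.factorial : ℂ))⁻¹ • (t - 0) ^ n • iteratedDeriv n f 0)
        (∑ n ∈ Finset.range (d + 1),
          ((n.factorial : ℂ))⁻¹ • (t - 0) ^ n • iteratedDeriv n f 0) :=
      hasSum_sum_of_ne_finset_zero (by
        intro m hm
        have : d < m := by
          by_contra h
          exact hm (Finset.mem_range.2 (by omega))
        rw [hz m this, smul_zero, smul_zero])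
    rw [h1.unique h2, Polynomial.eval_finset_sum]
    refine Finset.sum_congr rfl fun i _ => ?_
    rw [Polynomial.eval_monomial, sub_zero, smul_eq_mul, smul_eq_mul]
    ring

/-! ### Separately polynomial functions -/

variable {n : ℕ}

/-- `G` is a polynomial of degree at most `d` in each variable separately. -/
def SepPoly (d : ℕ) (G : (Fin n → ℂ) → ℂ) : Prop :=
  ∀ z j, ∃ p : Polynomial ℂ, p.natDegree ≤ d ∧ ∀ t, G (Function.update z j t) = p.eval t

/-- A grid point. -/
def gpt {d : ℕ} (a : Fin n → Fin (d + 1)) : Fin n → ℂ := fun j => ((a j : ℕ) : ℂ)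

/-- A polynomial vanishing at the points `0, …, d` vanishes. -/
theorem poly_zero_of_grid {d : ℕ} {p : Polynomial ℂ} (hp : p.natDegree ≤ d)
    (h : ∀ i : Fin (d + 1), p.eval ((i : ℕ) : ℂ) = 0) : p = 0 := by
  classical
  have hcard : (Finset.univ.image fun i : Fin (d + 1) => (((i : ℕ) : ℂ))).card = d + 1 := by
    rw [Finset.card_image_of_injective, Finset.card_univ, Fintype.card_fin]
    intro i j hij
    have hij' : ((i : ℕ) : ℂ) = ((j : ℕ) : ℂ) := hij
    exact Fin.ext (by exact_mod_cast hij')
  refine Polynomial.eq_zero_of_natDegree_lt_card_of_eval_eq_zero' p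
    (Finset.univ.image fun i : Fin (d + 1) => (((i : ℕ) : ℂ))) ?_ ?_
  · intro x hx
    obtain ⟨i, -, rfl⟩ := Finset.mem_image.1 hx
    exact h i
  · rw [hcard]
    omega

theorem SepPoly.eq_zero {d : ℕ} {G : (Fin n → ℂ) → ℂ} (hG : SepPoly d G)
    (h : ∀ a : Fin n → Fin (d + 1), G (gpt a) = 0) (z : Fin n → ℂ) : G z = 0 := by
  classical
  have key : ∀ (T : Finset (Fin n)) (z : Fin n → ℂ),
      (∀ j, j ∉ T → ∃ i : Fin (d + 1), z j = ((i : ℕ) : ℂ)) → G z = 0 := by
    intro T
    induction T using Finset.induction_on with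
    | empty =>
      intro z hz
      choose a ha using fun j => hz j (by simp)
      have : z = gpt a := funext fun j => ha j
      rw [this]
      exact h a
    | insert j T hj ih =>
      intro z hz
      obtain ⟨p, hp, hpe⟩ := hG z j
      have hp0 : p = 0 := by
        apply poly_zero_of_grid hp
        intro i
        rw [← hpe]
        apply ih
        intro l hl
        by_cases hlj : l = j
        · subst hlj
          exact ⟨i, by rw [Function.update_self]⟩
        · rw [Function.update_of_ne hlj]
          exact hz l (by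
            rw [Finset.mem_insert, not_or]
            exact ⟨hlj, hl⟩)
      have := hpe (z j)
      rw [Function.update_eq_self, hp0, Polynomial.eval_zero] at this
      exact this
  exact key Finset.univ z (fun j hj => absurd (Finset.mem_univ j) hj)

theorem SepPoly.sub {d : ℕ} {G H : (Fin n → ℂ) → ℂ} (hG : SepPoly d G) (hH : SepPoly d H) :
    SepPoly d (fun z => G z - H z) := by
  intro z j
  obtain ⟨p, hp, hpe⟩ := hG z j
  obtain ⟨q, hq, hqe⟩ := hH z j
  refine ⟨p - q, (Polynomial.natDegree_sub_le _ _).trans (max_le hp hq), fun t => ?_⟩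
  rw [Polynomial.eval_sub, ← hpe, ← hqe]

/-- Multivariate interpolation. -/
theorem SepPoly.exists_poly {d : ℕ} {G : (Fin n → ℂ) → ℂ} (hG : SepPoly d G) :
    ∃ P : MvPolynomial (Fin n) ℂ, (∀ j, P.degreeOf j ≤ d) ∧ ∀ z, G z = MvPolynomial.eval z P := by
  classical
  -- Lagrange polynomials in one variable
  have hL : ∀ i : Fin (d + 1), ∃ p : Polynomial ℂ, p.natDegree ≤ d ∧
      ∀ l : Fin (d + 1), p.eval ((l : ℕ) : ℂ) = if l = i then 1 else 0 := by
    intro i
    have hinj : Set.InjOn (fun l : Fin (d + 1) => (((l : ℕ) : ℂ))) (Finset.univ : Finset (Fin (d + 1))) := by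
      intro a _ b _ hab
      have hab' : ((a : ℕ) : ℂ) = ((b : ℕ) : ℂ) := hab
      exact Fin.ext (by exact_mod_cast hab')
    refine ⟨Lagrange.basis Finset.univ (fun l : Fin (d + 1) => (((l : ℕ) : ℂ))) i, ?_, ?_⟩
    · rw [Polynomial.natDegree_eq_of_degree_eq_some
        (Lagrange.degree_basis hinj (Finset.mem_univ i))]
      simp
    · intro l
      by_cases hl : l = i
      · subst hl
        rw [if_pos rfl]
        exact Lagrange.eval_basis_self hinj (Finset.mem_univ l)
      · rw [if_neg hl]
        exact Lagrange.eval_basis_of_ne (v := fun l : Fin (d + 1) => (((l : ℕ) : ℂ)))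
          (fun h => hl h.symm) (Finset.mem_univ l)
  choose ℓ hℓd hℓ using hL
  set Q : (Fin n → Fin (d + 1)) → MvPolynomial (Fin n) ℂ := fun a =>
    ∏ j, Polynomial.aeval (MvPolynomial.X j) (ℓ (a j)) with hQ
  have hQe : ∀ a z, MvPolynomial.eval z (Q a) = ∏ j, (ℓ (a j)).eval (z j) := by
    intro a z
    rw [hQ]
    simp only [map_prod]
    refine Finset.prod_congr rfl fun j _ => ?_
    have h1 : MvPolynomial.eval z (Polynomial.aeval (MvPolynomial.X j : MvPolynomial (Fin n) ℂ)
        (ℓ (a j))) = Polynomial.aeval (MvPolynomial.eval z (MvPolynomial.X j)) (ℓ (a j)) := by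
      have := Polynomial.hom_eval₂ (ℓ (a j)) (algebraMap ℂ (MvPolynomial (Fin n) ℂ))
        (MvPolynomial.eval z) (MvPolynomial.X j)
      rw [Polynomial.aeval_def, this, Polynomial.aeval_def]
      congr 1
      ext x
      simp
    rw [h1, MvPolynomial.eval_X]
    simp [Polynomial.aeval_def]
  set P : MvPolynomial (Fin n) ℂ := ∑ a : Fin n → Fin (d + 1),
    MvPolynomial.C (G (gpt a)) * Q a with hP
  have hPe : ∀ z, MvPolynomial.eval z P = ∑ a : Fin n → Fin (d + 1),
      G (gpt a) * ∏ j, (ℓ (a j)).eval (z j) := by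
    intro z
    rw [hP, map_sum]
    refine Finset.sum_congr rfl fun a _ => ?_
    rw [map_mul, MvPolynomial.eval_C, hQe]
  have hPs : SepPoly d (fun z => MvPolynomial.eval z P) := by
    intro z j
    refine ⟨∑ a : Fin n → Fin (d + 1), Polynomial.C (G (gpt a) *
      ∏ l ∈ Finset.univ.erase j, (ℓ (a l)).eval (z l)) * ℓ (a j), ?_, ?_⟩
    · refine Polynomial.natDegree_sum_le_of_forall_le _ _ ?_
      intro a _
      exact (Polynomial.natDegree_C_mul_le _ _).trans (hℓd _)
    · intro t
      show MvPolynomial.eval (Function.update z j t) P = _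
      rw [hPe, Polynomial.eval_finset_sum]
      refine Finset.sum_congr rfl fun a _ => ?_
      rw [← Finset.mul_prod_erase Finset.univ _ (Finset.mem_univ j), Function.update_self,
        Polynomial.eval_mul, Polynomial.eval_C]
      have : ∏ l ∈ Finset.univ.erase j, (ℓ (a l)).eval (Function.update z j t l) =
          ∏ l ∈ Finset.univ.erase j, (ℓ (a l)).eval (z l) := by
        refine Finset.prod_congr rfl fun l hl => ?_
        rw [Function.update_of_ne (Finset.ne_of_mem_erase hl)]
      rw [this]
      ring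
  refine ⟨P, ?_, ?_⟩
  · intro j
    have h1 : ∀ (p : Polynomial ℂ) (l : Fin n), (Polynomial.aeval (MvPolynomial.X l :
        MvPolynomial (Fin n) ℂ) p).degreeOf j ≤ if l = j then p.natDegree else 0 := by
      intro p l
      rw [Polynomial.aeval_eq_sum_range]
      refine (MvPolynomial.degreeOf_sum_le j _ _).trans (Finset.sup_le ?_)
      intro i hi
      rw [MvPolynomial.smul_eq_C_mul]
      refine (MvPolynomial.degreeOf_C_mul_le _ _ _).trans ?_
      refine (MvPolynomial.degreeOf_pow_le _ _ _).trans ?_
      rw [MvPolynomial.degreeOf_X]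
      by_cases hl : l = j
      · subst hl
        rw [if_pos rfl, if_pos rfl]
        have := Finset.mem_range.1 hi
        omega
      · rw [if_neg (fun h => hl h.symm), if_neg hl]
        simp
    rw [hP]
    refine (MvPolynomial.degreeOf_sum_le j _ _).trans (Finset.sup_le ?_)
    intro a _
    refine (MvPolynomial.degreeOf_C_mul_le _ _ _).trans ?_
    rw [hQ]
    refine (MvPolynomial.degreeOf_prod_le j _ _).trans ?_
    calc ∑ l, (Polynomial.aeval (MvPolynomial.X l : MvPolynomial (Fin n) ℂ) (ℓ (a l))).degreeOf j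
        ≤ ∑ l, (if l = j then (ℓ (a l)).natDegree else 0) := Finset.sum_le_sum fun l _ => h1 _ l
      _ = (ℓ (a j)).natDegree := by
        rw [Finset.sum_ite_eq' Finset.univ j]
        simp
      _ ≤ d := hℓd _
  · intro z
    have h1 := (hG.sub hPs).eq_zero (fun a => by
      show G (gpt a) - MvPolynomial.eval (gpt a) P = 0
      rw [hPe, Finset.sum_eq_single a]
      · have : ∏ j, (ℓ (a j)).eval (gpt a j) = 1 := by
          refine Finset.prod_eq_one fun j _ => ?_
          rw [gpt, hℓ, if_pos rfl]
        rw [this, mul_one, sub_self]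
      · intro b _ hb
        obtain ⟨j, hj⟩ := Function.ne_iff.1 hb
        have : ∏ j, (ℓ (b j)).eval (gpt a j) = 0 := by
          refine Finset.prod_eq_zero (Finset.mem_univ j) ?_
          rw [gpt, hℓ, if_neg (fun h => hj h.symm)]
        rw [this, mul_zero]
      · intro h
        exact absurd (Finset.mem_univ a) h) z
    exact sub_eq_zero.1 h1

end Vale.Agent.P299.H570
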